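import Mathlib
import Crest.Prelude.Def_ModularData

/-!
# S0112 (row 84) — second-track assembly of the per-`n` core (steps I.2–I.6 of `notes/s0112/PROOF.md`)

`Facts S` and `Tools H ω` collect the package facts (A–H of the proof) as plain hypotheses on the
Prelude objects; `core` derives from them the per-`n` statement that feeds the final extraction.
-/

set_option autoImplicit false
set_option linter.unusedSectionVars false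

namespace Crest.Agent.Helper45.S0112

open Crest.OpAlg Filter MeasureTheory
open scoped Topology

variable {H : Type*} [NormedAddCommGroup H] [InnerProductSpace ℂ H] [CompleteSpace H]

/-- The package facts about the modular datum used by the per-`n` core
(A1, A3, A4, C1, B+D+A5, C2, C4, E2 of the proof). -/
structure Facts (S : ModularDatum H) : Prop where
  wave_zero : S.D.wave 0 = 1
  wave_add : ∀ s t : ℝ, S.D.wave (s + t) = S.D.wave s * S.D.wave t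
  star_wave : ∀ t : ℝ, star (S.D.wave t) = S.D.wave (-t)
  norm_wave : ∀ (t : ℝ) (x : H), ‖S.D.wave t x‖ = ‖x‖
  cont_wave : ∀ x : H, Continuous fun t : ℝ => S.D.wave t x
  supp_add : ∀ (K : Set ℝ) (x y : H), S.D.SupportedIn K x → S.D.SupportedIn K y →
    S.D.SupportedIn K (x + y)
  supp_smul : ∀ (K : Set ℝ) (c : ℂ) (x : H), S.D.SupportedIn K x → S.D.SupportedIn K (c • x)
  supp_wave : ∀ (K : Set ℝ) (t : ℝ) (x : H), S.D.SupportedIn K x →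
    S.D.SupportedIn K (S.D.wave t x)
  wave_vac : ∀ t : ℝ, S.D.wave t S.vac = S.vac
  smooth : ∃ C₀ : ℝ, 0 ≤ C₀ ∧ ∀ (σ d : ℝ), 0 < d → ∀ a : H →L[ℂ] H, a ∈ S.M →
      ∃ a' : H →L[ℂ] H, a' ∈ S.M ∧ ‖a'‖ ≤ C₀ * ‖a‖ ∧
        S.D.SupportedIn (Set.Icc (σ - 2 * d) (σ + 2 * d)) (a' S.vac) ∧
        S.D.SupportedIn (Set.Icc (-σ - 2 * d) (-σ + 2 * d)) (star a' S.vac) ∧
        ∀ x : H, S.D.SupportedIn (Set.Icc (σ - d) (σ + d)) x →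
          ‖a' S.vac - x‖ ≤ ‖a S.vac - x‖
  star_bound : ∀ a : H →L[ℂ] H, a ∈ S.M → ∀ p q : ℝ,
      S.D.SupportedIn (Set.Icc p q) (a S.vac) →
      ‖star a S.vac‖ ≤ Real.exp (q / 2) * ‖a S.vac‖
  kms : ∀ a : H →L[ℂ] H, a ∈ S.M → ∀ p q : ℝ,
      S.D.SupportedIn (Set.Icc p q) (star a S.vac) →
      ∃ w : H, inner ℂ S.vac w = ((‖a S.vac‖ ^ 2 : ℝ) : ℂ) ∧
        ∀ (t : ℝ) (r : H →L[ℂ] H), r ∈ S.M →
          inner ℂ (S.flow t a S.vac) (r (S.flow t a S.vac)) = inner ℂ (S.D.wave t w) (r S.vac)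
  erg : ∀ z : H, Tendsto
      (fun k : ℕ => ((2 * (k : ℝ))⁻¹ : ℝ) • ∫ t in (-(k : ℝ))..(k : ℝ), S.D.wave t z)
      atTop (𝓝 (inner ℂ S.vac z • S.vac))

/-- The Mathlib-only tools (F, G1, G2, H of the proof and the ultrafilter window lemma). -/
structure Tools (H : Type*) [NormedAddCommGroup H] [InnerProductSpace ℂ H] [CompleteSpace H]
    (ω : Ultrafilter ℕ) : Prop where
  riemann_H : ∀ Ψ : ℝ → H, Continuous Ψ → ∀ k : ℝ, 0 < k →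
    Tendsto (fun N : ℕ => ((N : ℝ)⁻¹ : ℝ) • ∑ i : Fin N, Ψ (-k + 2 * k * (i : ℝ) / N)) atTop
      (𝓝 (((2 * k)⁻¹ : ℝ) • ∫ t in (-k)..k, Ψ t))
  riemann_R : ∀ Ψ : ℝ → ℝ, Continuous Ψ → ∀ k : ℝ, 0 < k →
    Tendsto (fun N : ℕ => ((N : ℝ)⁻¹ : ℝ) * ∑ i : Fin N, Ψ (-k + 2 * k * (i : ℝ) / N)) atTop
      (𝓝 (((2 * k)⁻¹ : ℝ) * ∫ t in (-k)..k, Ψ t))
  phases1 : ∀ (N : ℕ) (x : Fin N → H →L[ℂ] H) (T : H →L[ℂ] H) (ξ : H),
    ∑ θ : Fin N → Fin 4, ‖T ((∑ i, (Complex.I ^ (θ i : ℕ)) • x i) ξ)‖ ^ 2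
      = 4 ^ N * ∑ i, ‖T (x i ξ)‖ ^ 2
  phases2 : ∀ (N : ℕ) (x : Fin N → H →L[ℂ] H) (ξ : H),
    ∑ θ : Fin N → Fin 4,
        ‖star (∑ i, (Complex.I ^ (θ i : ℕ)) • x i) ((∑ i, (Complex.I ^ (θ i : ℕ)) • x i) ξ)‖ ^ 2
      ≤ 4 ^ N * (‖(∑ i, star (x i) * x i) ξ‖ ^ 2
          + ∑ j, (inner ℂ (x j ξ) ((∑ i, x i * star (x i)) (x j ξ))).re)
  trunc : ∀ (v : H →L[ℂ] H) (R : ℝ), 0 < R → ∃ v' : H →L[ℂ] H,
    (∀ M : VonNeumannAlgebra H, v ∈ M → v' ∈ M) ∧ ‖v'‖ ≤ Real.sqrt R / 2 ∧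
      ∀ ξ : H, ‖v ξ - v' ξ‖ ≤ ‖star v (v ξ)‖ / (2 * Real.sqrt R)
  window : ∀ (g : ℝ → ℝ) (B : ℝ), Continuous g → (∀ t, |g t| ≤ B) → ∀ c c' : ℝ,
    c ≤ ultraMean ω g → c' < c → ∀ K : ℕ, ∃ k : ℕ, K ≤ k ∧ 1 ≤ k ∧ c' < windowMean g k


/-! ### Small general lemmas -/

lemma sq_norm_sub_abs_le (T : H →L[ℂ] H) (x y : H) :
    |‖T x‖ ^ 2 - ‖T y‖ ^ 2| ≤ ‖T‖ ^ 2 * (‖x‖ + ‖y‖) * ‖x - y‖ := by
  have h1 : |‖T x‖ - ‖T y‖| ≤ ‖T‖ * ‖x - y‖ := by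
    calc |‖T x‖ - ‖T y‖| ≤ ‖T x - T y‖ := abs_norm_sub_norm_le _ _
      _ = ‖T (x - y)‖ := by rw [map_sub]
      _ ≤ ‖T‖ * ‖x - y‖ := T.le_opNorm _
  have h2 : ‖T x‖ + ‖T y‖ ≤ ‖T‖ * (‖x‖ + ‖y‖) := by
    have hx := T.le_opNorm x
    have hy := T.le_opNorm y
    nlinarith
  have h3 : ‖T x‖ ^ 2 - ‖T y‖ ^ 2 = (‖T x‖ - ‖T y‖) * (‖T x‖ + ‖T y‖) := by ring
  rw [h3, abs_mul, abs_of_nonneg (by positivity : 0 ≤ ‖T x‖ + ‖T y‖)]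
  calc |‖T x‖ - ‖T y‖| * (‖T x‖ + ‖T y‖)
      ≤ (‖T‖ * ‖x - y‖) * (‖T‖ * (‖x‖ + ‖y‖)) :=
        mul_le_mul h1 h2 (by positivity) (by positivity)
    _ = ‖T‖ ^ 2 * (‖x‖ + ‖y‖) * ‖x - y‖ := by ring

lemma sq_norm_le_two (T : H →L[ℂ] H) (x y : H) :
    ‖T x‖ ^ 2 ≤ 2 * ‖T y‖ ^ 2 + 2 * ‖T‖ ^ 2 * ‖y - x‖ ^ 2 := by
  have h1 : ‖T x‖ ≤ ‖T y‖ + ‖T‖ * ‖y - x‖ := by
    have h3 : ‖T x‖ ≤ ‖T y‖ + ‖T x - T y‖ := norm_le_insert' _ _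
    have h2 : ‖T x - T y‖ ≤ ‖T‖ * ‖y - x‖ := by
      rw [← map_sub, norm_sub_rev y x]; exact T.le_opNorm _
    linarith
  have h0 : 0 ≤ ‖T x‖ := norm_nonneg _
  have h4 : 0 ≤ ‖T y‖ := norm_nonneg _
  have h5 : 0 ≤ ‖T‖ * ‖y - x‖ := by positivity
  nlinarith [sq_nonneg (‖T y‖ - ‖T‖ * ‖y - x‖),
    mul_nonneg (sub_nonneg.mpr h1) (by positivity : 0 ≤ ‖T y‖ + ‖T‖ * ‖y - x‖ + ‖T x‖)]

lemma windowMean_eq (g : ℝ → ℝ) (k : ℕ) (hk : 1 ≤ k) :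
    windowMean g k = (2 * (k : ℝ))⁻¹ * ∫ t in (-(k : ℝ))..(k : ℝ), g t := by
  have hk0 : (0 : ℝ) < k := by exact_mod_cast hk
  unfold windowMean
  rw [MeasureTheory.setAverage_eq, intervalIntegral.integral_of_le (by linarith),
    MeasureTheory.integral_Icc_eq_integral_Ioc, smul_eq_mul,
    Real.volume_real_Icc_of_le (by linarith)]
  congr 2
  ring

lemma windowMean_zero (k : ℕ) : windowMean (fun _ : ℝ => (0 : ℝ)) k = 0 := by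
  unfold windowMean
  simp

lemma supp_zero (S : ModularDatum H) (K : Set ℝ) : S.D.SupportedIn K (0 : H) :=
  fun _ _ => map_zero _

lemma supp_sum (S : ModularDatum H) (P : Facts S) (K : Set ℝ) {ι : Type*} (s : Finset ι)
    (f : ι → H) (hf : ∀ i ∈ s, S.D.SupportedIn K (f i)) :
    S.D.SupportedIn K (∑ i ∈ s, f i) :=
  Finset.sum_induction f (S.D.SupportedIn K) (P.supp_add K) (supp_zero S K) hf


lemma norm_le_of_dist {x y z : H} {e r : ℝ} (h1 : dist x y < e / 2) (h2 : dist y z < e / 2)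
    (hz : ‖z‖ = r) : ‖x‖ ≤ r + e := by
  have h4 : dist x z < e := by linarith [dist_triangle x y z]
  have h3 : ‖x‖ ≤ ‖z‖ + ‖x - z‖ := norm_le_insert' _ _
  rw [dist_eq_norm] at h4
  linarith

/-! ### Step I.2: the element `a` -/

lemma exists_a (S : ModularDatum H) (P : Facts S) (s δ : ℝ) (hδ : 0 < δ) (hδ1 : δ ≤ 1)
    (h : H) (hh : ‖h‖ = 1) (hband : S.D.SupportedIn (Set.Icc (s - δ) (s + δ)) h)
    (ε₀ : ℝ) (hε₀pos : 0 < ε₀) (hε₀half : ε₀ ≤ 1 / 2) :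
    ∃ (a : H →L[ℂ] H) (w : H), a ∈ S.M ∧
      S.D.SupportedIn (Set.Icc (s - 2 * δ) (s + 2 * δ)) (a S.vac) ∧
      ‖a S.vac - h‖ < ε₀ ∧ ‖a S.vac‖ ≤ 3 / 2 ∧
      ‖star a S.vac‖ ^ 2 ≤ 9 / 4 * Real.exp (s + 2) ∧
      inner ℂ S.vac w = ((‖a S.vac‖ ^ 2 : ℝ) : ℂ) ∧
      ∀ (t : ℝ) (r : H →L[ℂ] H), r ∈ S.M →
        inner ℂ (S.flow t a S.vac) (r (S.flow t a S.vac)) = inner ℂ (S.D.wave t w) (r S.vac) := by
  obtain ⟨C₀, -, hsm⟩ := P.smooth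
  obtain ⟨b, hb⟩ : ∃ b : S.M, ‖(b : H →L[ℂ] H) S.vac - h‖ < ε₀ := by
    rcases Metric.mem_closure_iff.mp (S.cyclic h) ε₀ hε₀pos with ⟨y, ⟨b, rfl⟩, hy⟩
    exact ⟨b, by rwa [dist_comm, dist_eq_norm] at hy⟩
  obtain ⟨a, haM, -, ha_supp, has_supp, ha_near⟩ := hsm s δ hδ b b.2
  have ha_h : ‖a S.vac - h‖ < ε₀ := lt_of_le_of_lt (ha_near h hband) hb
  have ha_norm : ‖a S.vac‖ ≤ 3 / 2 := by
    have h1 : ‖a S.vac‖ ≤ ‖h‖ + ‖a S.vac - h‖ := norm_le_insert' _ _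
    linarith
  have hA1le : ‖a S.vac‖ ^ 2 ≤ 9 / 4 := by
    have h0 : 0 ≤ ‖a S.vac‖ := norm_nonneg _
    nlinarith
  have hA2le : ‖star a S.vac‖ ^ 2 ≤ 9 / 4 * Real.exp (s + 2) := by
    have h1 := P.star_bound a haM (s - 2 * δ) (s + 2 * δ) ha_supp
    have h2 : Real.exp ((s + 2 * δ) / 2) ^ 2 ≤ Real.exp (s + 2) := by
      rw [← Real.exp_nat_mul]
      apply Real.exp_le_exp.mpr
      push_cast
      linarith
    have h3 : 0 ≤ ‖star a S.vac‖ := norm_nonneg _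
    calc ‖star a S.vac‖ ^ 2 ≤ (Real.exp ((s + 2 * δ) / 2) * ‖a S.vac‖) ^ 2 :=
          pow_le_pow_left₀ h3 h1 2
      _ = Real.exp ((s + 2 * δ) / 2) ^ 2 * ‖a S.vac‖ ^ 2 := by ring
      _ ≤ Real.exp (s + 2) * (9 / 4) :=
          mul_le_mul h2 hA1le (by positivity) (Real.exp_pos _).le
      _ = 9 / 4 * Real.exp (s + 2) := by ring
  obtain ⟨w, hw1, hw2⟩ := P.kms a haM (-s - 2 * δ) (-s + 2 * δ) has_supp
  exact ⟨a, w, haM, ha_supp, ha_h, ha_norm, hA2le, hw1, hw2⟩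

/-! ### Steps I.3–I.4: the sampling times -/

/-- The grid point `-k + 2 k i / N`. -/
noncomputable def tgrid (k N : ℕ) (i : Fin N) : ℝ := -(k : ℝ) + 2 * (k : ℝ) * (i : ℝ) / N

lemma wave_neg_wave (S : ModularDatum H) (P : Facts S) (t : ℝ) (y : H) :
    S.D.wave (-t) (S.D.wave t y) = y := by
  have h1 : S.D.wave (-t) * S.D.wave t = 1 := by
    rw [← P.wave_add, neg_add_cancel, P.wave_zero]
  have h2 := congrArg (fun A : H →L[ℂ] H => A y) h1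
  simpa using h2

lemma flow_apply (S : ModularDatum H) (t : ℝ) (a : H →L[ℂ] H) (y : H) :
    S.flow t a y = S.D.wave t (a (S.D.wave (-t) y)) := rfl

lemma star_flow_apply (S : ModularDatum H) (P : Facts S) (t : ℝ) (a : H →L[ℂ] H) (y : H) :
    star (S.flow t a) y = S.D.wave t (star a (S.D.wave (-t) y)) := by
  have h1 : star (S.flow t a) = S.D.wave t * star a * S.D.wave (-t) := by
    have h0 : S.flow t a = S.D.wave t * a * S.D.wave (-t) := rfl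
    rw [h0, star_mul, star_mul, P.star_wave, P.star_wave, neg_neg, mul_assoc]
  rw [h1]
  rfl

lemma flow_vac (S : ModularDatum H) (P : Facts S) (t : ℝ) (a : H →L[ℂ] H) :
    S.flow t a S.vac = S.D.wave t (a S.vac) := by
  rw [flow_apply, P.wave_vac]

lemma star_flow_vac (S : ModularDatum H) (P : Facts S) (t : ℝ) (a : H →L[ℂ] H) :
    star (S.flow t a) S.vac = S.D.wave t (star a S.vac) := by
  rw [star_flow_apply S P, P.wave_vac]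

/-- Algebraic part of I.4: the two quantities of G2 in terms of grid averages. -/
lemma g2_bound (S : ModularDatum H) (P : Facts S) (a : H →L[ℂ] H) (haM : a ∈ S.M) (w : H)
    (hw2 : ∀ (t : ℝ) (r : H →L[ℂ] H), r ∈ S.M →
      inner ℂ (S.flow t a S.vac) (r (S.flow t a S.vac)) = inner ℂ (S.D.wave t w) (r S.vac))
    (N : ℕ) (hN0 : (0 : ℝ) < N) (tt : Fin N → ℝ) (G₁ G₂ G₃ : H)
    (hG₁ : G₁ = ((N : ℝ)⁻¹ : ℝ) • ∑ i : Fin N, S.D.wave (tt i) (star a (a S.vac)))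
    (hG₂ : G₂ = ((N : ℝ)⁻¹ : ℝ) • ∑ i : Fin N, S.D.wave (tt i) (a (star a S.vac)))
    (hG₃ : G₃ = ((N : ℝ)⁻¹ : ℝ) • ∑ i : Fin N, S.D.wave (tt i) w) :
    ‖(∑ i, star (S.flow (tt i) a) * S.flow (tt i) a) S.vac‖ ^ 2
      + ∑ j, (inner ℂ (S.flow (tt j) a S.vac)
          ((∑ i, S.flow (tt i) a * star (S.flow (tt i) a)) (S.flow (tt j) a S.vac))).re
      ≤ (N : ℝ) ^ 2 * (‖G₁‖ ^ 2 + ‖G₃‖ * ‖G₂‖) := by
  have hxM : ∀ i, S.flow (tt i) a ∈ S.M := fun i => S.flow_mem (tt i) a haM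
  have hc1 : (∑ i, star (S.flow (tt i) a) * S.flow (tt i) a) S.vac = (N : ℝ) • G₁ := by
    rw [hG₁, smul_smul, mul_inv_cancel₀ hN0.ne', one_smul, ContinuousLinearMap.sum_apply]
    refine Finset.sum_congr rfl fun i _ => ?_
    rw [ContinuousLinearMap.mul_apply, flow_vac S P, star_flow_apply S P, wave_neg_wave S P]
  have hc2 : (∑ i, S.flow (tt i) a * star (S.flow (tt i) a)) S.vac = (N : ℝ) • G₂ := by
    rw [hG₂, smul_smul, mul_inv_cancel₀ hN0.ne', one_smul, ContinuousLinearMap.sum_apply]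
    refine Finset.sum_congr rfl fun i _ => ?_
    rw [ContinuousLinearMap.mul_apply, star_flow_vac S P, flow_apply, wave_neg_wave S P]
  obtain ⟨r, hr⟩ : ∃ r : H →L[ℂ] H, r = ∑ i, S.flow (tt i) a * star (S.flow (tt i) a) :=
    ⟨_, rfl⟩
  have hrM : r ∈ S.M := by
    rw [hr]
    exact sum_mem fun i _ => mul_mem (hxM i) (star_mem (hxM i))
  rw [← hr] at hc2 ⊢
  have hsum3 : ∑ j, (inner ℂ (S.flow (tt j) a S.vac) (r (S.flow (tt j) a S.vac))).re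
      ≤ (N : ℝ) ^ 2 * (‖G₃‖ * ‖G₂‖) := by
    have h1 : ∀ j, inner ℂ (S.flow (tt j) a S.vac) (r (S.flow (tt j) a S.vac))
        = inner ℂ (S.D.wave (tt j) w) (r S.vac) := fun j => hw2 (tt j) r hrM
    simp_rw [h1]
    rw [← Complex.re_sum, ← sum_inner, hc2]
    have h2 : ∑ j, S.D.wave (tt j) w = (N : ℝ) • G₃ := by
      rw [hG₃, smul_smul, mul_inv_cancel₀ hN0.ne', one_smul]
    rw [h2]
    calc (inner ℂ ((N : ℝ) • G₃) ((N : ℝ) • G₂)).re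
        ≤ ‖inner ℂ ((N : ℝ) • G₃) ((N : ℝ) • G₂)‖ := Complex.re_le_norm _
      _ ≤ ‖(N : ℝ) • G₃‖ * ‖(N : ℝ) • G₂‖ := norm_inner_le_norm _ _
      _ = (N : ℝ) ^ 2 * (‖G₃‖ * ‖G₂‖) := by
        rw [norm_smul (N : ℝ) G₃, norm_smul (N : ℝ) G₂, Real.norm_of_nonneg hN0.le]
        ring
  have h1 : ‖(N : ℝ) • G₁‖ ^ 2 = (N : ℝ) ^ 2 * ‖G₁‖ ^ 2 := by
    rw [norm_smul (N : ℝ) G₁, Real.norm_of_nonneg hN0.le]
    ring
  rw [hc1, h1]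
  linarith


/-- Steps I.2–I.4: the operators `x i = σ_{t_i}(a)` with the two moment bounds. -/
lemma grid (S : ModularDatum H) (P : Facts S) (ω : Ultrafilter ℕ) (Q : Tools H ω)
    (T : H →L[ℂ] H) (hT : T ≠ 0) (s c : ℝ) (hc : 0 < c) (δ : ℝ) (hδ : 0 < δ) (hδ1 : δ ≤ 1)
    (h : H) (hh : ‖h‖ = 1) (hband : S.D.SupportedIn (Set.Icc (s - δ) (s + δ)) h)
    (hpos : c ≤ ultraMean ω (fun t : ℝ => ‖T (S.D.wave t h)‖ ^ 2)) :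
    ∃ (N : ℕ) (x : Fin N → H →L[ℂ] H), 0 < N ∧ (∀ i, x i ∈ S.M) ∧
      (∀ i, S.D.SupportedIn (Set.Icc (s - 2 * δ) (s + 2 * δ)) (x i S.vac)) ∧
      (N : ℝ) * (c / 2) ≤ ∑ i, ‖T (x i S.vac)‖ ^ 2 ∧
      ‖(∑ i, star (x i) * x i) S.vac‖ ^ 2
        + ∑ j, (inner ℂ (x j S.vac) ((∑ i, x i * star (x i)) (x j S.vac))).re
        ≤ (N : ℝ) ^ 2 * (12 + 12 * Real.exp (s + 2)) := by
  have hTpos : 0 < ‖T‖ := norm_pos_iff.mpr hT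
  have hEpos : 0 < Real.exp (s + 2) := Real.exp_pos _
  -- the tolerances
  obtain ⟨ε₀, hε₀pos, hε₀half, hε₀T⟩ :
      ∃ ε₀ : ℝ, 0 < ε₀ ∧ ε₀ ≤ 1 / 2 ∧ 3 * ‖T‖ ^ 2 * ε₀ ≤ c / 8 := by
    refine ⟨min (1 / 2) (c / (24 * ‖T‖ ^ 2)), lt_min (by norm_num) (by positivity),
      min_le_left _ _, ?_⟩
    have h1 : min (1 / 2) (c / (24 * ‖T‖ ^ 2)) ≤ c / (24 * ‖T‖ ^ 2) := min_le_right _ _
    have h2 : 3 * ‖T‖ ^ 2 * (c / (24 * ‖T‖ ^ 2)) = c / 8 := by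
      field_simp
      ring
    calc 3 * ‖T‖ ^ 2 * min (1 / 2) (c / (24 * ‖T‖ ^ 2))
        ≤ 3 * ‖T‖ ^ 2 * (c / (24 * ‖T‖ ^ 2)) := by gcongr
      _ = c / 8 := h2
  obtain ⟨ε₁, hε₁pos, hε₁half, hε₁c⟩ : ∃ ε₁ : ℝ, 0 < ε₁ ∧ ε₁ ≤ 1 / 2 ∧ ε₁ ≤ c / 8 :=
    ⟨min (1 / 2) (c / 8), lt_min (by norm_num) (by positivity), min_le_left _ _,
      min_le_right _ _⟩
  obtain ⟨a, w, haM, ha_supp, ha_h, ha_norm, hA2le, hw1, hw2⟩ :=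
    exists_a S P s δ hδ hδ1 h hh hband ε₀ hε₀pos hε₀half
  have hA1nn : 0 ≤ ‖a S.vac‖ ^ 2 := by positivity
  have hA2nn : 0 ≤ ‖star a S.vac‖ ^ 2 := by positivity
  have hA1le : ‖a S.vac‖ ^ 2 ≤ 9 / 4 := by nlinarith [norm_nonneg (a S.vac)]
  -- the ergodic limits
  have hin1 : inner ℂ S.vac (star a (a S.vac)) = ((‖a S.vac‖ ^ 2 : ℝ) : ℂ) := by
    rw [ContinuousLinearMap.star_eq_adjoint, ContinuousLinearMap.adjoint_inner_right,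
      inner_self_eq_norm_sq_to_K]
    norm_cast
  have hin2 : inner ℂ S.vac (a (star a S.vac)) = ((‖star a S.vac‖ ^ 2 : ℝ) : ℂ) := by
    have h1 : inner ℂ S.vac (a (star a S.vac)) = inner ℂ (star a S.vac) (star a S.vac) := by
      rw [ContinuousLinearMap.star_eq_adjoint, ContinuousLinearMap.adjoint_inner_left]
    rw [h1, inner_self_eq_norm_sq_to_K]
    norm_cast
  have hlim1 := P.erg (star a (a S.vac))
  rw [hin1] at hlim1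
  have hlim2 := P.erg (a (star a S.vac))
  rw [hin2] at hlim2
  have hlim3 := P.erg w
  rw [hw1] at hlim3
  have hL : ∀ A : ℝ, 0 ≤ A → ‖((A : ℝ) : ℂ) • S.vac‖ = A := by
    intro A hA
    rw [norm_smul, Complex.norm_real, Real.norm_of_nonneg hA, S.norm_vac, mul_one]
  have ev1 := (Metric.tendsto_nhds.mp hlim1) (ε₁ / 2) (by positivity)
  have ev2 := (Metric.tendsto_nhds.mp hlim2) (ε₁ / 2) (by positivity)
  have ev3 := (Metric.tendsto_nhds.mp hlim3) (ε₁ / 2) (by positivity)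
  obtain ⟨K, hK⟩ := (ev1.and (ev2.and ev3)).exists_forall_of_atTop
  -- the window
  obtain ⟨g, hg⟩ : ∃ g : ℝ → ℝ, g = fun t => ‖T (S.D.wave t h)‖ ^ 2 := ⟨_, rfl⟩
  have hg_apply : ∀ t, g t = ‖T (S.D.wave t h)‖ ^ 2 := fun t => by rw [hg]
  rw [← hg] at hpos
  have hgc : Continuous g := by
    rw [hg]
    exact (T.continuous.comp (P.cont_wave h)).norm.pow 2
  have hgb : ∀ t, |g t| ≤ ‖T‖ ^ 2 := by
    intro t
    rw [hg_apply, abs_of_nonneg (by positivity)]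
    have h1 : ‖T (S.D.wave t h)‖ ≤ ‖T‖ * ‖S.D.wave t h‖ := T.le_opNorm _
    rw [P.norm_wave, hh, mul_one] at h1
    exact pow_le_pow_left₀ (norm_nonneg _) h1 2
  obtain ⟨k, hkK, hk1, hkw⟩ := Q.window g (‖T‖ ^ 2) hgc hgb c (3 * c / 4) hpos (by linarith) K
  have hk0 : (0 : ℝ) < k := by exact_mod_cast hk1
  rw [windowMean_eq g k hk1] at hkw
  obtain ⟨hW1, hW2, hW3⟩ := hK k hkK
  -- the grid
  have hr1 := Q.riemann_H (fun t => S.D.wave t (star a (a S.vac))) (P.cont_wave _) k hk0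
  have hr2 := Q.riemann_H (fun t => S.D.wave t (a (star a S.vac))) (P.cont_wave _) k hk0
  have hr3 := Q.riemann_H (fun t => S.D.wave t w) (P.cont_wave w) k hk0
  have hr4 := Q.riemann_R g hgc k hk0
  have e1 := (Metric.tendsto_nhds.mp hr1) (ε₁ / 2) (by positivity)
  have e2 := (Metric.tendsto_nhds.mp hr2) (ε₁ / 2) (by positivity)
  have e3 := (Metric.tendsto_nhds.mp hr3) (ε₁ / 2) (by positivity)
  have e4 := (Metric.tendsto_nhds.mp hr4) ε₁ hε₁pos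
  obtain ⟨N, ⟨hG1, hG2, hG3, hG4⟩, hN1⟩ :=
    ((e1.and (e2.and (e3.and e4))).and (eventually_ge_atTop 1)).exists
  have hN0 : (0 : ℝ) < N := by exact_mod_cast hN1
  obtain ⟨G₁, hG₁⟩ : ∃ G : H,
      G = ((N : ℝ)⁻¹ : ℝ) • ∑ i : Fin N, S.D.wave (tgrid k N i) (star a (a S.vac)) := ⟨_, rfl⟩
  obtain ⟨G₂, hG₂⟩ : ∃ G : H,
      G = ((N : ℝ)⁻¹ : ℝ) • ∑ i : Fin N, S.D.wave (tgrid k N i) (a (star a S.vac)) := ⟨_, rfl⟩
  obtain ⟨G₃, hG₃⟩ : ∃ G : H,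
      G = ((N : ℝ)⁻¹ : ℝ) • ∑ i : Fin N, S.D.wave (tgrid k N i) w := ⟨_, rfl⟩
  have hnG1 : ‖G₁‖ ≤ ‖a S.vac‖ ^ 2 + ε₁ := by
    rw [hG₁]
    exact norm_le_of_dist hG1 hW1 (hL _ hA1nn)
  have hnG2 : ‖G₂‖ ≤ ‖star a S.vac‖ ^ 2 + ε₁ := by
    rw [hG₂]
    exact norm_le_of_dist hG2 hW2 (hL _ hA2nn)
  have hnG3 : ‖G₃‖ ≤ ‖a S.vac‖ ^ 2 + ε₁ := by
    rw [hG₃]
    exact norm_le_of_dist hG3 hW3 (hL _ hA1nn)
  have hSg : (N : ℝ) * (3 * c / 4 - ε₁) < ∑ i : Fin N, g (tgrid k N i) := by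
    rw [Real.dist_eq, abs_lt] at hG4
    have h1 : 3 * c / 4 - ε₁ < (N : ℝ)⁻¹ * ∑ i : Fin N, g (tgrid k N i) := by
      have h0 := hG4.1
      have h00 : (N : ℝ)⁻¹ * ∑ i : Fin N, g (tgrid k N i)
          = (N : ℝ)⁻¹ * ∑ i : Fin N, g (-(k : ℝ) + 2 * (k : ℝ) * (i : ℝ) / N) := rfl
      rw [h00]
      linarith
    have h2 : ∑ i : Fin N, g (tgrid k N i)
        = (N : ℝ) * ((N : ℝ)⁻¹ * ∑ i : Fin N, g (tgrid k N i)) := by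
      field_simp
    rw [h2]
    exact mul_lt_mul_of_pos_left h1 hN0
  refine ⟨N, fun i => S.flow (tgrid k N i) a, hN1, fun i => S.flow_mem _ a haM, ?_, ?_, ?_⟩
  · intro i
    rw [flow_vac S P]
    exact P.supp_wave _ _ _ ha_supp
  · have h1 : ∀ i : Fin N, g (tgrid k N i) - 3 * ‖T‖ ^ 2 * ε₀
        ≤ ‖T (S.flow (tgrid k N i) a S.vac)‖ ^ 2 := by
      intro i
      rw [flow_vac S P, hg_apply]
      have h2 := sq_norm_sub_abs_le T (S.D.wave (tgrid k N i) (a S.vac))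
        (S.D.wave (tgrid k N i) h)
      rw [P.norm_wave, P.norm_wave, hh, ← map_sub, P.norm_wave] at h2
      have h3 : ‖T‖ ^ 2 * (‖a S.vac‖ + 1) * ‖a S.vac - h‖ ≤ 3 * ‖T‖ ^ 2 * ε₀ := by
        have h6 : 0 ≤ ‖T‖ ^ 2 := by positivity
        have h5 : (‖a S.vac‖ + 1) * ‖a S.vac - h‖ ≤ 3 * ε₀ := by
          nlinarith [norm_nonneg (a S.vac - h), norm_nonneg (a S.vac)]
        calc ‖T‖ ^ 2 * (‖a S.vac‖ + 1) * ‖a S.vac - h‖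
            = ‖T‖ ^ 2 * ((‖a S.vac‖ + 1) * ‖a S.vac - h‖) := by ring
          _ ≤ ‖T‖ ^ 2 * (3 * ε₀) := by gcongr
          _ = 3 * ‖T‖ ^ 2 * ε₀ := by ring
      have h4 := (abs_le.mp h2).1
      linarith
    calc (N : ℝ) * (c / 2) ≤ (N : ℝ) * (3 * c / 4 - ε₁) - N * (3 * ‖T‖ ^ 2 * ε₀) := by
          nlinarith [mul_nonneg hN0.le
            (by linarith : (0 : ℝ) ≤ 3 * c / 4 - ε₁ - 3 * ‖T‖ ^ 2 * ε₀ - c / 2)]
      _ ≤ ∑ i : Fin N, g (tgrid k N i) - N * (3 * ‖T‖ ^ 2 * ε₀) := by linarith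
      _ = ∑ i : Fin N, (g (tgrid k N i) - 3 * ‖T‖ ^ 2 * ε₀) := by
          rw [Finset.sum_sub_distrib, Finset.sum_const, Finset.card_univ, Fintype.card_fin,
            nsmul_eq_mul]
      _ ≤ ∑ i, ‖T (S.flow (tgrid k N i) a S.vac)‖ ^ 2 := Finset.sum_le_sum fun i _ => h1 i
  · have hgb := g2_bound S P a haM w hw2 N hN0 (tgrid k N) G₁ G₂ G₃ hG₁ hG₂ hG₃
    have h2 : ‖G₁‖ ^ 2 + ‖G₃‖ * ‖G₂‖ ≤ 12 + 12 * Real.exp (s + 2) := by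
      have hg1 : ‖G₁‖ ≤ 11 / 4 := by linarith
      have hg3 : ‖G₃‖ ≤ 11 / 4 := by linarith
      have hg2 : ‖G₂‖ ≤ 9 / 4 * Real.exp (s + 2) + 1 / 2 := by linarith
      have hn1 := norm_nonneg G₁
      have hn2 := norm_nonneg G₂
      have hn3 := norm_nonneg G₃
      have h3 : ‖G₁‖ ^ 2 ≤ (11 / 4) ^ 2 := pow_le_pow_left₀ hn1 hg1 2
      have h4 : ‖G₃‖ * ‖G₂‖ ≤ 11 / 4 * (9 / 4 * Real.exp (s + 2) + 1 / 2) :=
        mul_le_mul hg3 hg2 hn2 (by norm_num)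
      linarith
    have h5 : (N : ℝ) ^ 2 * (‖G₁‖ ^ 2 + ‖G₃‖ * ‖G₂‖)
        ≤ (N : ℝ) ^ 2 * (12 + 12 * Real.exp (s + 2)) :=
      mul_le_mul_of_nonneg_left h2 (by positivity)
    exact hgb.trans h5

/-! ### Steps I.5–I.6: phases, truncation, smoothing, pigeonhole -/

lemma select (S : ModularDatum H) (P : Facts S) (ω : Ultrafilter ℕ) (Q : Tools H ω)
    (T : H →L[ℂ] H) (s c Bc C₀ : ℝ) (hc : 0 < c) (hBc : 0 < Bc) (hC₀ : 0 ≤ C₀) (hT : T ≠ 0)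
    (hsm : ∀ (σ d : ℝ), 0 < d → ∀ a : H →L[ℂ] H, a ∈ S.M →
      ∃ a' : H →L[ℂ] H, a' ∈ S.M ∧ ‖a'‖ ≤ C₀ * ‖a‖ ∧
        S.D.SupportedIn (Set.Icc (σ - 2 * d) (σ + 2 * d)) (a' S.vac) ∧
        S.D.SupportedIn (Set.Icc (-σ - 2 * d) (-σ + 2 * d)) (star a' S.vac) ∧
        ∀ x : H, S.D.SupportedIn (Set.Icc (σ - d) (σ + d)) x →
          ‖a' S.vac - x‖ ≤ ‖a S.vac - x‖)
    (δ : ℝ) (hδ : 0 < δ)
    (N : ℕ) (x : Fin N → H →L[ℂ] H) (hN : 0 < N) (hxM : ∀ i, x i ∈ S.M)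
    (hxs : ∀ i, S.D.SupportedIn (Set.Icc (s - 2 * δ) (s + 2 * δ)) (x i S.vac))
    (h1 : (N : ℝ) * (c / 2) ≤ ∑ i, ‖T (x i S.vac)‖ ^ 2)
    (h2 : ‖(∑ i, star (x i) * x i) S.vac‖ ^ 2
        + ∑ j, (inner ℂ (x j S.vac) ((∑ i, x i * star (x i)) (x j S.vac))).re
        ≤ (N : ℝ) ^ 2 * Bc) :
    ∃ v : H →L[ℂ] H, v ∈ S.M ∧ ‖v‖ ≤ C₀ * (Real.sqrt (2 * ‖T‖ ^ 2 * Bc / c) / 2) ∧
      Real.sqrt (c / 8) ≤ ‖T (v S.vac)‖ ∧
      S.D.SupportedIn (Set.Icc (s - 4 * δ) (s + 4 * δ)) (v S.vac) := by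
  have hTpos : 0 < ‖T‖ := norm_pos_iff.mpr hT
  obtain ⟨R, hR⟩ : ∃ R : ℝ, R = 2 * ‖T‖ ^ 2 * Bc / c := ⟨_, rfl⟩
  have hRpos : 0 < R := by
    rw [hR]
    positivity
  rw [← hR]
  have hN0 : (0 : ℝ) < N := by exact_mod_cast hN
  have hsN : 0 < Real.sqrt N := Real.sqrt_pos.mpr hN0
  obtain ⟨cN, hcN⟩ : ∃ cN : ℂ, cN = (((Real.sqrt N)⁻¹ : ℝ) : ℂ) := ⟨_, rfl⟩
  have hcN2 : ‖cN‖ ^ 2 = (N : ℝ)⁻¹ := by
    rw [hcN, Complex.norm_real, Real.norm_of_nonneg (inv_nonneg.mpr hsN.le), inv_pow,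
      Real.sq_sqrt hN0.le]
  have hcNstar : star cN = cN := by
    rw [hcN, Complex.star_def, Complex.conj_ofReal]
  -- the phase sums
  obtain ⟨V, hV⟩ : ∃ V : (Fin N → Fin 4) → H →L[ℂ] H,
      V = fun θ => ∑ i, (Complex.I ^ (θ i : ℕ)) • x i := ⟨_, rfl⟩
  have hVM : ∀ θ, V θ ∈ S.M := by
    intro θ
    rw [hV]
    exact sum_mem fun i _ => S.M.toStarSubalgebra.smul_mem (hxM i) _
  have hVs : ∀ θ, S.D.SupportedIn (Set.Icc (s - 2 * δ) (s + 2 * δ)) (V θ S.vac) := by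
    intro θ
    have h3 : V θ S.vac = ∑ i, (Complex.I ^ (θ i : ℕ)) • x i S.vac := by
      rw [hV]
      simp
    rw [h3]
    exact supp_sum S P _ _ _ fun i _ => P.supp_smul _ _ _ (hxs i)
  have hp1 : ∑ θ, ‖T (V θ S.vac)‖ ^ 2 = 4 ^ N * ∑ i, ‖T (x i S.vac)‖ ^ 2 := by
    rw [hV]
    exact Q.phases1 N x T S.vac
  have hp2 : ∑ θ, ‖star (V θ) (V θ S.vac)‖ ^ 2 ≤ 4 ^ N * ((N : ℝ) ^ 2 * Bc) := by
    rw [hV]
    exact (Q.phases2 N x S.vac).trans (mul_le_mul_of_nonneg_left h2 (by positivity))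
  -- the normalised sums
  have hvM : ∀ θ, cN • V θ ∈ S.M := fun θ => S.M.toStarSubalgebra.smul_mem (hVM θ) _
  have hvs : ∀ θ, S.D.SupportedIn (Set.Icc (s - 2 * δ) (s + 2 * δ)) ((cN • V θ) S.vac) := by
    intro θ
    rw [ContinuousLinearMap.smul_apply]
    exact P.supp_smul _ _ _ (hVs θ)
  have hTv : ∀ θ, ‖T ((cN • V θ) S.vac)‖ ^ 2 = (N : ℝ)⁻¹ * ‖T (V θ S.vac)‖ ^ 2 := by
    intro θ
    rw [ContinuousLinearMap.smul_apply, map_smul, norm_smul, mul_pow, hcN2]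
  have hsv : ∀ θ, ‖star (cN • V θ) ((cN • V θ) S.vac)‖ ^ 2
      = ((N : ℝ)⁻¹) ^ 2 * ‖star (V θ) (V θ S.vac)‖ ^ 2 := by
    intro θ
    rw [star_smul, hcNstar, ContinuousLinearMap.smul_apply, ContinuousLinearMap.smul_apply,
      map_smul, norm_smul, norm_smul, ← mul_assoc, mul_pow, ← hcN2]
    ring
  -- truncation and smoothing
  choose v' hv'M hv'n hv'ξ using fun θ => Q.trunc (cN • V θ) R hRpos
  choose v'' hv''M hv''n hv''s _ hv''near using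
    fun θ => hsm s (2 * δ) (by positivity) (v' θ) (hv'M θ S.M (hvM θ))
  -- the pointwise inequality
  have hpt : ∀ θ, ‖T ((cN • V θ) S.vac)‖ ^ 2 ≤ 2 * ‖T (v'' θ S.vac)‖ ^ 2
      + ‖T‖ ^ 2 / (2 * R) * ‖star (cN • V θ) ((cN • V θ) S.vac)‖ ^ 2 := by
    intro θ
    have h3 := sq_norm_le_two T ((cN • V θ) S.vac) (v'' θ S.vac)
    have h4 : ‖v'' θ S.vac - (cN • V θ) S.vac‖
        ≤ ‖star (cN • V θ) ((cN • V θ) S.vac)‖ / (2 * Real.sqrt R) := by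
      refine (hv''near θ _ (hvs θ)).trans ?_
      rw [norm_sub_rev]
      exact hv'ξ θ S.vac
    have h5 : ‖v'' θ S.vac - (cN • V θ) S.vac‖ ^ 2
        ≤ ‖star (cN • V θ) ((cN • V θ) S.vac)‖ ^ 2 / (4 * R) := by
      have h6 := pow_le_pow_left₀ (norm_nonneg _) h4 2
      have h7 : (‖star (cN • V θ) ((cN • V θ) S.vac)‖ / (2 * Real.sqrt R)) ^ 2
          = ‖star (cN • V θ) ((cN • V θ) S.vac)‖ ^ 2 / (4 * R) := by
        rw [div_pow, mul_pow, Real.sq_sqrt hRpos.le]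
        norm_num
      rw [h7] at h6
      exact h6
    have h8 : 2 * ‖T‖ ^ 2 * ‖v'' θ S.vac - (cN • V θ) S.vac‖ ^ 2
        ≤ ‖T‖ ^ 2 / (2 * R) * ‖star (cN • V θ) ((cN • V θ) S.vac)‖ ^ 2 := by
      calc 2 * ‖T‖ ^ 2 * ‖v'' θ S.vac - (cN • V θ) S.vac‖ ^ 2
          ≤ 2 * ‖T‖ ^ 2 * (‖star (cN • V θ) ((cN • V θ) S.vac)‖ ^ 2 / (4 * R)) := by gcongr
        _ = ‖T‖ ^ 2 / (2 * R) * ‖star (cN • V θ) ((cN • V θ) S.vac)‖ ^ 2 := by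
          field_simp
          ring
    linarith
  -- summing
  have hsum_p : (4 : ℝ) ^ N * (c / 2) ≤ ∑ θ, ‖T ((cN • V θ) S.vac)‖ ^ 2 := by
    simp_rw [hTv]
    rw [← Finset.mul_sum, hp1]
    calc (4 : ℝ) ^ N * (c / 2) = (N : ℝ)⁻¹ * (4 ^ N * ((N : ℝ) * (c / 2))) := by
          field_simp
      _ ≤ (N : ℝ)⁻¹ * (4 ^ N * ∑ i, ‖T (x i S.vac)‖ ^ 2) := by gcongr
  have hsum_e : ∑ θ, ‖star (cN • V θ) ((cN • V θ) S.vac)‖ ^ 2 ≤ (4 : ℝ) ^ N * Bc := by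
    simp_rw [hsv]
    rw [← Finset.mul_sum]
    calc ((N : ℝ)⁻¹) ^ 2 * ∑ θ, ‖star (V θ) (V θ S.vac)‖ ^ 2
        ≤ ((N : ℝ)⁻¹) ^ 2 * (4 ^ N * ((N : ℝ) ^ 2 * Bc)) := by gcongr
      _ = (4 : ℝ) ^ N * Bc := by
          field_simp
  have hsum_q : (4 : ℝ) ^ N * (c / 8) ≤ ∑ θ, ‖T (v'' θ S.vac)‖ ^ 2 := by
    have h3 : ∑ θ, ‖T ((cN • V θ) S.vac)‖ ^ 2 ≤ ∑ θ, (2 * ‖T (v'' θ S.vac)‖ ^ 2
        + ‖T‖ ^ 2 / (2 * R) * ‖star (cN • V θ) ((cN • V θ) S.vac)‖ ^ 2) :=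
      Finset.sum_le_sum fun θ _ => hpt θ
    rw [Finset.sum_add_distrib, ← Finset.mul_sum, ← Finset.mul_sum] at h3
    have h4 : ‖T‖ ^ 2 / (2 * R) * ∑ θ, ‖star (cN • V θ) ((cN • V θ) S.vac)‖ ^ 2
        ≤ ‖T‖ ^ 2 / (2 * R) * ((4 : ℝ) ^ N * Bc) := by gcongr
    have h5 : ‖T‖ ^ 2 / (2 * R) * ((4 : ℝ) ^ N * Bc) = (4 : ℝ) ^ N * (c / 4) := by
      rw [hR]
      field_simp
      ring
    linarith
  -- pigeonhole
  obtain ⟨θ, hθ⟩ : ∃ θ : Fin N → Fin 4, c / 8 ≤ ‖T (v'' θ S.vac)‖ ^ 2 := by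
    by_contra hcon
    simp only [not_exists, not_le] at hcon
    have h3 : ∑ θ : Fin N → Fin 4, ‖T (v'' θ S.vac)‖ ^ 2 < ∑ _θ : Fin N → Fin 4, c / 8 :=
      Finset.sum_lt_sum_of_nonempty Finset.univ_nonempty fun θ _ => hcon θ
    rw [Finset.sum_const, Finset.card_univ, Fintype.card_fun, Fintype.card_fin,
      Fintype.card_fin, nsmul_eq_mul] at h3
    push_cast at h3
    linarith
  refine ⟨v'' θ, hv''M θ, ?_, ?_, ?_⟩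
  · exact (hv''n θ).trans (mul_le_mul_of_nonneg_left (hv'n θ) hC₀)
  · have h3 := Real.sqrt_le_sqrt hθ
    rwa [Real.sqrt_sq (norm_nonneg _)] at h3
  · have h3 := hv''s θ
    have e1 : s - 2 * (2 * δ) = s - 4 * δ := by ring
    have e2 : s + 2 * (2 * δ) = s + 4 * δ := by ring
    rwa [e1, e2] at h3

/-! ### The per-`n` core -/

/-- The per-`n` core of S0112 from the package facts: exactly the hypothesis needed by the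
final subsequence extraction. -/
theorem core (S : ModularDatum H) (P : Facts S) (ω : Ultrafilter ℕ) (Q : Tools H ω)
    (T : H →L[ℂ] H) (s c : ℝ) (hc : 0 < c) :
    ∃ C η : ℝ, 0 < η ∧ ∀ (δ : ℝ) (h : H), 0 < δ → δ ≤ 1 → ‖h‖ = 1 →
      S.D.SupportedIn (Set.Icc (s - δ) (s + δ)) h →
      c ≤ ultraMean ω (fun t : ℝ => ‖T (S.D.wave t h)‖ ^ 2) →
      ∃ v : H →L[ℂ] H, v ∈ S.M ∧ ‖v‖ ≤ C ∧ η ≤ ‖T (v S.vac)‖ ∧
        S.D.SupportedIn (Set.Icc (s - 4 * δ) (s + 4 * δ)) (v S.vac) := by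
  obtain ⟨C₀, hC₀, hsm⟩ := P.smooth
  refine ⟨C₀ * (Real.sqrt (2 * ‖T‖ ^ 2 * (12 + 12 * Real.exp (s + 2)) / c) / 2),
    Real.sqrt (c / 8), Real.sqrt_pos.mpr (by positivity), ?_⟩
  intro δ h hδ hδ1 hh hband hpos
  have hT : T ≠ 0 := by
    rintro rfl
    obtain ⟨k, -, -, hk⟩ := Q.window (fun _ : ℝ => (0 : ℝ)) 0 continuous_const (by simp) c
      (c / 2) (by simpa using hpos) (by linarith) 0
    rw [windowMean_zero] at hk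
    linarith
  obtain ⟨N, x, hN, hxM, hxs, h1, h2⟩ := grid S P ω Q T hT s c hc δ hδ hδ1 h hh hband hpos
  exact select S P ω Q T s c _ C₀ hc (by positivity) hC₀ hT hsm δ hδ N x hN hxM hxs h1 h2

/-! ### Step I.7: the frozen conclusion from the package facts -/

/-- The conclusion of S0112 from the package facts. -/
theorem result_of (S : ModularDatum H) (P : Facts S) (ω : Ultrafilter ℕ) (Q : Tools H ω)
    (T : H →L[ℂ] H) (s : ℝ) (δ : ℕ → ℝ) (hδ : ∀ n, 0 < δ n)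
    (hδ0 : Tendsto δ atTop (𝓝 0))
    (h : ℕ → H) (hh : ∀ n, ‖h n‖ = 1)
    (hband : ∀ n, S.D.SupportedIn (Set.Icc (s - δ n) (s + δ n)) (h n))
    (hpos : ∃ c : ℝ, 0 < c ∧ ∃ᶠ n in atTop,
      c ≤ ultraMean ω (fun t : ℝ => ‖T (S.D.wave t (h n))‖ ^ 2)) :
    ∃ (n' : ℕ → ℕ) (v : ℕ → (H →L[ℂ] H)) (C η : ℝ), StrictMono n' ∧ 0 < η ∧
      ∀ j : ℕ, v j ∈ S.M ∧ ‖v j‖ ≤ C ∧ η ≤ ‖T (v j S.vac)‖ ∧
        S.D.SupportedIn (Set.Icc (s - 4 * δ (n' j)) (s + 4 * δ (n' j))) (v j S.vac) := by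
  obtain ⟨c, hc, hfreq⟩ := hpos
  obtain ⟨C, η, hη, hcore⟩ := core S P ω Q T s c hc
  have hev : ∀ᶠ n in atTop, δ n ≤ 1 :=
    ((tendsto_order.1 hδ0).2 1 zero_lt_one).mono fun n hn => hn.le
  obtain ⟨n', hn', hn'P⟩ := Filter.extraction_of_frequently_atTop (hfreq.and_eventually hev)
  choose v hv using fun j : ℕ =>
    hcore (δ (n' j)) (h (n' j)) (hδ (n' j)) (hn'P j).2 (hh (n' j)) (hband (n' j)) (hn'P j).1
  exact ⟨n', v, C, η, hn', hη, hv⟩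

end Crest.Agent.Helper45.S0112
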